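import Vale.Agent.P091.T.H880.Round

/-! # P091: the crude bound for bounded `D` and the root of the heart (helper880)

For bounded `D` the gain is trivially bounded (one fixed letter per class, `L²`). So it is enough
to prove `HEAVY` for large `D`, for rounded letters and with the floor of `H960`. -/

open Finset

noncomputable section

namespace Vale.Agent.P091.T.H880

open Vale.Agent.P091.Spec

/-- the `L²` bound of one class -/
theorem class_crude {C0 D : ℝ} {n js ac : ℕ} (hjs : js ≤ n) (hac : ac < 2 ^ js)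
    (p a : ℕ → ℝ) (A : ℕ → ℂ) (ξ : ℝ) (hp : ∀ i, 0 ≤ p i) (hpD : ∀ i, p i ≤ Real.exp D)
    (ha : ∀ i, 0 ≤ a i) (ha1 : ∀ i, a i ≤ 1) (hsupp : ∀ i, a i ≠ 0 → i ∈ nd n js ac)
    (hmass : Real.exp (-(C0 * D)) ≤ av n js ac a) (hA : ∀ i, ‖A i‖ ≤ a i) :
    ‖∑ j ∈ Ico (js + 3) (n - 1), ∑ i ∈ range (2 ^ n), A i * (sg n j i : ℂ) *
        dB n p ξ j (anc n j i)‖ ≤ Real.exp ((C0 / 2 + 1) * D) * ∑ i ∈ range (2 ^ n), a i := by
  set X : ℕ → ℂ := fun i => if i ∈ nd n js ac then (p i : ℂ) * e (-(ξ * i)) else 0 with hX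
  have hAw : ∀ i, A i ≠ 0 → i ∈ nd n js ac := by
    intro i hi
    apply hsupp
    intro h
    have := hA i
    rw [h] at this
    exact hi (norm_le_zero_iff.1 this)
  have hrew : ∑ j ∈ Ico (js + 3) (n - 1), ∑ i ∈ range (2 ^ n), A i * (sg n j i : ℂ) *
      dB n p ξ j (anc n j i) = ∑ j ∈ Ico (js + 3) (n - 1), ∑ i ∈ range (2 ^ n),
        A i * (sg n j i : ℂ) * H960.dX n X j (anc n j i) := by
    refine sum_congr rfl fun j hj => sum_congr rfl fun i _ => ?_
    rw [mem_Ico] at hj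
    by_cases hi : A i = 0
    · rw [hi]; simp
    · have hiw := hAw i hi
      congr 1
      unfold dB H960.dX BB avC
      congr 3
      · refine sum_congr rfl fun i' hi' => ?_
        rw [hX]
        simp only
        rw [if_pos (H960.child_sub hiw (by omega) (by omega) (Or.inl rfl) hi')]
      · refine sum_congr rfl fun i' hi' => ?_
        rw [hX]
        simp only
        rw [if_pos (H960.child_sub hiw (by omega) (by omega) (Or.inr rfl) hi')]
  rw [hrew]
  refine (H960.form_le A X (s := Ico (js + 3) (n - 1)) fun j hj => by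
    rw [mem_Ico] at hj; omega).trans ?_
  set S : ℝ := ∑ i ∈ range (2 ^ n), a i with hSdef
  have hS0 : 0 ≤ S := sum_nonneg fun i _ => ha i
  have hS : S = av n js ac a * 2 ^ (n - js) := by
    rw [← H960.av_eq, hSdef, ← sum_subset (H960.nd_sub hjs hac)]
    intro i _ hi
    by_contra h
    exact hi (hsupp i h)
  have hA2 : ∑ i ∈ range (2 ^ n), ‖A i‖ ^ 2 ≤ S := by
    refine sum_le_sum fun i _ => ?_
    have h2 := hA i
    have h3 := ha1 i
    have h4 := norm_nonneg (A i)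
    nlinarith
  have hX2 : ∑ i ∈ range (2 ^ n), ‖X i‖ ^ 2 ≤ Real.exp D ^ 2 * 2 ^ (n - js) := by
    have h1 : ∑ i ∈ range (2 ^ n), ‖X i‖ ^ 2 = ∑ i ∈ nd n js ac, p i ^ 2 := by
      rw [← sum_subset (H960.nd_sub hjs hac)]
      · refine sum_congr rfl fun i hi => ?_
        rw [hX]
        simp only
        rw [if_pos hi, norm_mul, norm_e, mul_one, Complex.norm_real, Real.norm_of_nonneg (hp i)]
      · intro i _ hi
        rw [hX]
        simp only
        rw [if_neg hi]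
        simp
    rw [h1]
    calc ∑ i ∈ nd n js ac, p i ^ 2 ≤ ∑ i ∈ nd n js ac, Real.exp D ^ 2 :=
          sum_le_sum fun i _ => pow_le_pow_left₀ (hp i) (hpD i) 2
      _ = Real.exp D ^ 2 * 2 ^ (n - js) := by
          rw [sum_const, H960.card_nd, nsmul_eq_mul]
          push_cast
          ring
  have hX3 : Real.exp D ^ 2 * 2 ^ (n - js) ≤ Real.exp D ^ 2 * (Real.exp (C0 * D) * S) := by
    apply mul_le_mul_of_nonneg_left _ (by positivity)
    rw [hS]
    have h1 : 1 ≤ Real.exp (C0 * D) * av n js ac a := by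
      calc (1 : ℝ) = Real.exp (C0 * D) * Real.exp (-(C0 * D)) := by
            rw [← Real.exp_add]; simp
        _ ≤ _ := mul_le_mul_of_nonneg_left hmass (Real.exp_pos _).le
    have h2 : (0 : ℝ) < 2 ^ (n - js) := by positivity
    nlinarith
  calc Real.sqrt (∑ i ∈ range (2 ^ n), ‖A i‖ ^ 2) * Real.sqrt (∑ i ∈ range (2 ^ n), ‖X i‖ ^ 2)
      ≤ Real.sqrt S * Real.sqrt (Real.exp D ^ 2 * (Real.exp (C0 * D) * S)) :=
        mul_le_mul (Real.sqrt_le_sqrt hA2) (Real.sqrt_le_sqrt (hX2.trans hX3))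
          (Real.sqrt_nonneg _) (Real.sqrt_nonneg _)
    _ = Real.sqrt ((Real.exp ((C0 / 2 + 1) * D) * S) ^ 2) := by
        rw [← Real.sqrt_mul hS0]
        congr 1
        have h1 : Real.exp ((C0 / 2 + 1) * D) ^ 2 = Real.exp D ^ 2 * Real.exp (C0 * D) := by
          rw [← Real.exp_nat_mul, ← Real.exp_nat_mul, ← Real.exp_add]
          congr 1
          push_cast
          ring
        rw [mul_pow, h1]
        ring
    _ = _ := Real.sqrt_sq (by positivity)

/-- **the crude bound**, independent of `n` and of the number of classes -/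
theorem gain_crude {C0 D : ℝ} {n : ℕ} {ι : Type} [Fintype ι] (d : HData C0 D n ι) :
    ‖d.gain‖ ≤ Real.exp ((C0 / 2 + 1) * D) := by
  have ha1 : ∀ k i, d.a k i ≤ 1 := fun k i =>
    (single_le_sum (fun k _ => d.a_nonneg k i) (mem_univ k)).trans (d.a_sum i)
  have h1 : ∀ k, ‖∑ j ∈ Ico (d.js k + 3) (n - 1),
      (∑ i ∈ range (2 ^ n), d.A k i * sg n j i * dB n d.p (d.ξ k) j (anc n j i)) / 2 ^ n‖
      ≤ Real.exp ((C0 / 2 + 1) * D) * ((∑ i ∈ range (2 ^ n), d.a k i) / 2 ^ n) := by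
    intro k
    rw [← sum_div, norm_div]
    have h7 : ‖((2 : ℂ) ^ n)‖ = 2 ^ n := by rw [norm_pow]; norm_num
    rw [h7, mul_div_assoc']
    refine div_le_div_of_nonneg_right ?_ (by positivity)
    exact class_crude (d.js_le k) (d.ac_lt k) d.p (d.a k) (d.A k) (d.ξ k) d.p_nonneg d.p_le
      (d.a_nonneg k) (ha1 k) (d.a_supp k) (d.a_mass k) (d.A_le k)
  unfold HData.gain
  refine (norm_sum_le_of_le _ fun k _ => h1 k).trans ?_
  rw [← mul_sum, ← sum_div, sum_comm]
  have h10 : (∑ i ∈ range (2 ^ n), ∑ k, d.a k i) / 2 ^ n ≤ (1 : ℝ) := by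
    rw [div_le_one (by positivity)]
    refine (sum_le_sum fun i _ => d.a_sum i).trans ?_
    simp
  calc _ ≤ Real.exp ((C0 / 2 + 1) * D) * 1 :=
        mul_le_mul_of_nonneg_left h10 (Real.exp_pos _).le
    _ = _ := mul_one _

/-- **root of the heart**: large `D`, letters which are multiples of `2^{-(n + b D)}`, floor for
the class masses -/
theorem heavy_root (b : ℝ → ℕ)
    (H : ∀ C0 C1 : ℝ, 0 ≤ C0 → 0 ≤ C1 → ∃ C D0 : ℝ, ∀ (D : ℝ) (n : ℕ) (ι : Type) [Fintype ι]
      (d : HData C0 D n ι), 2 ≤ D → D0 ≤ D →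
      (∀ k, ∃ r : ℕ, r < 2 ^ (n + b D) ∧ d.ξ k = (r : ℝ) / 2 ^ (n + b D)) →
      (∀ k i, d.A k i ≠ 0 → ∀ j, d.js k ≤ j → j ≤ n →
        Real.exp (-(C1 * D)) ≤ av n j (anc n j i) (d.a k)) → ‖d.gain‖ ≤ C * D) :
    HEAVY := by
  refine heavy_of_round_floor b fun C0 C1 hC0 hC1 => ?_
  obtain ⟨C, D0, hC⟩ := H C0 C1 hC0 hC1
  refine ⟨max C (Real.exp ((C0 / 2 + 1) * D0)), fun D n ι _ d hD hr hf => ?_⟩
  rcases le_total D0 D with h | h
  · refine (hC D n ι d hD h hr hf).trans ?_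
    exact mul_le_mul_of_nonneg_right (le_max_left _ _) (by linarith)
  · refine (gain_crude d).trans ?_
    have h1 : Real.exp ((C0 / 2 + 1) * D) ≤ Real.exp ((C0 / 2 + 1) * D0) :=
      Real.exp_le_exp.2 (mul_le_mul_of_nonneg_left h (by linarith))
    have h2 : Real.exp ((C0 / 2 + 1) * D0) ≤ max C (Real.exp ((C0 / 2 + 1) * D0)) :=
      le_max_right _ _
    have h3 : 0 < max C (Real.exp ((C0 / 2 + 1) * D0)) := lt_of_lt_of_le (Real.exp_pos _) h2
    nlinarith

end Vale.Agent.P091.T.H880
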