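import Vale.Agent.P091.T.Props
import Vale.Agent.P091.T.H880.Crude

/-! # P091: row `P_T1`, `HEAVYZ → HEAVY` (helper880) -/

set_option autoImplicit false

open Finset

noncomputable section

namespace Vale.Agent.P091.T.H880

open Vale.Agent.P091.Spec Vale.Agent.P091.T

theorem ch_eq (n b r i : ℕ) :
    ch n b (-((r : ZMod (2 ^ (n + b))) * i)) = e (-((r : ℝ) / 2 ^ (n + b) * i)) := by
  have h : -((r : ZMod (2 ^ (n + b))) * i) = ((-(r * i : ℕ) : ℤ) : ZMod (2 ^ (n + b))) := by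
    push_cast; ring
  unfold ch
  rw [h, ZMod.stdAddChar_coe]
  unfold e
  congr 1
  push_cast
  ring

theorem BZ_eq (n b : ℕ) (q : ℕ → ℝ) (r : ℕ) (j a : ℕ) :
    BZ n b q (r : ZMod (2 ^ (n + b))) j a = BB n q ((r : ℝ) / 2 ^ (n + b)) j a := by
  unfold BZ BB
  congr 1
  funext i
  rw [ch_eq]

theorem dZ_eq (n b : ℕ) (q : ℕ → ℝ) (r : ℕ) (j a : ℕ) :
    dZ n b q (r : ZMod (2 ^ (n + b))) j a = dB n q ((r : ℝ) / 2 ^ (n + b)) j a := by
  unfold dZ dB
  rw [BZ_eq, BZ_eq]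

/-- the integer data -/
def toZ {C0 C1 D : ℝ} {n b : ℕ} {ι : Type} [Fintype ι] (d : HData C0 D n ι) (r : ι → ℕ)
    (hf : ∀ k i, d.A k i ≠ 0 → ∀ j, d.js k ≤ j → j ≤ n →
        Real.exp (-(C1 * D)) ≤ av n j (anc n j i) (d.a k)) : ZData C1 D n b ι where
  p := d.p
  js := d.js
  ac := d.ac
  r := fun k => (r k : ZMod (2 ^ (n + b)))
  a := d.a
  A := d.A
  p_nonneg := d.p_nonneg
  p_le := d.p_le
  p_avg := d.p_avg
  js_le := d.js_le
  ac_lt := d.ac_lt
  a_nonneg := d.a_nonneg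
  a_sum := d.a_sum
  a_supp := d.a_supp
  A_le := d.A_le
  alive := d.alive
  floor := hf

theorem gain_toZ {C0 C1 D : ℝ} {n b : ℕ} {ι : Type} [Fintype ι] (d : HData C0 D n ι) (r : ι → ℕ)
    (hf : ∀ k i, d.A k i ≠ 0 → ∀ j, d.js k ≤ j → j ≤ n →
        Real.exp (-(C1 * D)) ≤ av n j (anc n j i) (d.a k))
    (hr : ∀ k, d.ξ k = (r k : ℝ) / 2 ^ (n + b)) :
    gain (toZ (b := b) d r hf) d.p 0 0 = d.gain := by
  unfold gain below
  have h1 : ∀ j ∈ Ico 0 (n - 1), ∑ a ∈ Ico (0 * 2 ^ (j - 0)) ((0 + 1) * 2 ^ (j - 0)),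
      ng (toZ (b := b) d r hf) d.p j a
      = ∑ k, if d.js k + 3 ≤ j then (∑ i ∈ range (2 ^ n),
          d.A k i * sg n j i * dB n d.p (d.ξ k) j (anc n j i)) / 2 ^ n else 0 := by
    intro j hj
    rw [mem_Ico] at hj
    have e1 : Ico (0 * 2 ^ (j - 0)) ((0 + 1) * 2 ^ (j - 0)) = range (2 ^ j) := by
      rw [zero_mul, zero_add, one_mul, Nat.sub_zero, range_eq_Ico]
    rw [e1]
    unfold ng
    rw [sum_comm]
    refine sum_congr rfl fun k _ => ?_
    by_cases hk : d.js k + 3 ≤ j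
    · have hk' : (toZ (b := b) d r hf).js k + 3 ≤ j := hk
      simp only [hk, hk', if_true]
      rw [H960.sum_nodes (show j ≤ n by omega), sum_div]
      refine sum_congr rfl fun a _ => ?_
      have h2 : dZ n b d.p ((toZ (b := b) d r hf).r k) j a = dB n d.p (d.ξ k) j a := by
        rw [hr k]; exact dZ_eq n b d.p (r k) j a
      rw [h2, div_mul_eq_mul_div, sum_mul]
      congr 1
      refine sum_congr rfl fun i hi => ?_
      rw [H960.anc_of_mem hi]
      rfl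
    · have hk' : ¬ (toZ (b := b) d r hf).js k + 3 ≤ j := hk
      simp only [hk, hk', if_false, sum_const_zero]
  rw [sum_congr rfl h1, sum_comm]
  unfold HData.gain
  refine sum_congr rfl fun k _ => ?_
  rw [← sum_filter]
  refine sum_congr ?_ fun j _ => rfl
  ext j
  rw [mem_filter, mem_Ico, mem_Ico]
  omega

/-- **row T1** -/
theorem t1 : P_T1 := by
  intro H
  refine heavy_root bb fun C0 C1 hC0 hC1 => ?_
  obtain ⟨C, D0, hC⟩ := H C1 hC1
  refine ⟨C, D0, fun D n ι _ d hD hD0 hr hf => ?_⟩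
  choose r _ hr using hr
  rw [← gain_toZ (b := bb D) d r hf hr]
  exact hC D n ι (toZ (b := bb D) d r hf) hD0

end Vale.Agent.P091.T.H880
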