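import Vale.Agent.P091.T.H350.Bridge
import Vale.Agent.P091.T.H960.Floor

/-! # P091: rounding of the letters of `Spec.HEAVY` (helper880)

The letters `ξ k` of an `HData` may be rounded to multiples of `2^{-(n+b)}`: everything except the
letters and the phases of `A` stays the same, and the gain changes by at most
`16 (log D)² / 2^b`. -/

open Finset

noncomputable section

namespace Vale.Agent.P091.T.H880

open Vale.Agent.P091.Spec

/-- the index of the rounded letter -/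
def ri (M : ℕ) (x : ℝ) : ℕ := (⌊x * M⌋ % (M : ℤ)).toNat

/-- the remainder -/
def rt (M : ℕ) (x : ℝ) : ℝ := x - (⌊x * M⌋ : ℝ) / M

theorem ri_lt {M : ℕ} (hM : 0 < M) (x : ℝ) : ri M x < M := by
  unfold ri
  have h1 : 0 ≤ ⌊x * M⌋ % (M : ℤ) := Int.emod_nonneg _ (by omega)
  have h2 : ⌊x * M⌋ % (M : ℤ) < M := Int.emod_lt_of_pos _ (by omega)
  omega

theorem rt_nonneg {M : ℕ} (hM : 0 < M) (x : ℝ) : 0 ≤ rt M x := by
  unfold rt
  have hM' : (0 : ℝ) < M := by exact_mod_cast hM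
  rw [sub_nonneg, div_le_iff₀ hM']
  exact Int.floor_le _

theorem rt_le {M : ℕ} (hM : 0 < M) (x : ℝ) : rt M x ≤ 1 / M := by
  unfold rt
  have hM' : (0 : ℝ) < M := by exact_mod_cast hM
  rw [sub_le_iff_le_add, ← add_div, le_div_iff₀ hM']
  have := (Int.lt_floor_add_one (x * M)).le
  linarith

theorem e_add (s t : ℝ) : e (s + t) = e s * e t := by
  unfold e
  rw [← Complex.exp_add]
  congr 1
  push_cast
  ring

theorem e_int (m : ℤ) : e (m : ℝ) = 1 := by
  unfold e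
  rw [Complex.exp_eq_one_iff]
  exact ⟨m, by push_cast; ring⟩

theorem norm_e (t : ℝ) : ‖e t‖ = 1 := by
  unfold e
  have : 2 * (Real.pi : ℂ) * Complex.I * t = ((2 * Real.pi * t : ℝ) : ℂ) * Complex.I := by
    push_cast; ring
  rw [this, Complex.norm_exp_ofReal_mul_I]

theorem norm_e_sub (s t : ℝ) : ‖e s - e t‖ ≤ 2 * Real.pi * |s - t| := by
  have h : e s = e t * e (s - t) := by rw [← e_add]; congr 1; ring
  rw [h, ← mul_sub_one, norm_mul, norm_e, one_mul]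
  have h2 : e (s - t) = Complex.exp (Complex.I * ((2 * Real.pi * (s - t) : ℝ) : ℂ)) := by
    unfold e
    congr 1
    push_cast
    ring
  rw [h2]
  refine (Real.norm_exp_I_mul_ofReal_sub_one_le).trans ?_
  rw [Real.norm_eq_abs, abs_mul, abs_of_nonneg (by positivity : (0 : ℝ) ≤ 2 * Real.pi)]

/-- the character of the letter `x` is the one of the rounded letter times a slow phase -/
theorem e_round {M : ℕ} (hM : 0 < M) (x : ℝ) (i : ℕ) :
    e (-(x * i)) = e (-((ri M x : ℝ) / M * i)) * e (-(rt M x * i)) := by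
  have hM' : (M : ℝ) ≠ 0 := by exact_mod_cast hM.ne'
  obtain ⟨q, hq⟩ : ∃ q : ℤ, (⌊x * M⌋ : ℤ) = ri M x + M * q := by
    refine ⟨⌊x * M⌋ / M, ?_⟩
    unfold ri
    rw [Int.toNat_of_nonneg (Int.emod_nonneg _ (by omega))]
    exact (Int.emod_add_mul_ediv _ _).symm
  have hx : x = (ri M x : ℝ) / M + q + rt M x := by
    unfold rt
    have : (⌊x * M⌋ : ℝ) = ri M x + M * q := by exact_mod_cast hq
    rw [this]
    field_simp
    ring
  have h1 : -(x * i) = -((ri M x : ℝ) / M * i) + (-(rt M x * i)) + ((-(q * i) : ℤ) : ℝ) := by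
    conv_lhs => rw [hx]
    push_cast
    ring
  rw [h1, e_add, e_add, e_int, mul_one]

/-- the rounded data -/
def rd {C0 D : ℝ} {n : ℕ} {ι : Type} [Fintype ι] (b : ℕ) (d : HData C0 D n ι) :
    HData C0 D n ι where
  p := d.p
  js := d.js
  ac := d.ac
  ξ := fun k => (ri (2 ^ (n + b)) (d.ξ k) : ℝ) / 2 ^ (n + b)
  a := d.a
  A := fun k i => d.A k i * e (-(rt (2 ^ (n + b)) (d.ξ k) * i))
  p_nonneg := d.p_nonneg
  p_le := d.p_le
  p_avg := d.p_avg
  js_le := d.js_le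
  ac_lt := d.ac_lt
  a_nonneg := d.a_nonneg
  a_sum := d.a_sum
  a_supp := d.a_supp
  a_mass := d.a_mass
  A_le := fun k i => by rw [norm_mul, norm_e, mul_one]; exact d.A_le k i
  alive := fun k i h => d.alive k i (left_ne_zero_of_mul h)

section
variable {C0 D : ℝ} {n : ℕ} {ι : Type} [Fintype ι] (b : ℕ) (d : HData C0 D n ι)

@[simp] theorem rd_p : (rd b d).p = d.p := rfl
@[simp] theorem rd_js : (rd b d).js = d.js := rfl
@[simp] theorem rd_ac : (rd b d).ac = d.ac := rfl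
@[simp] theorem rd_a : (rd b d).a = d.a := rfl

theorem rd_xi (k : ι) : ∃ r : ℕ, r < 2 ^ (n + b) ∧ (rd b d).ξ k = (r : ℝ) / 2 ^ (n + b) :=
  ⟨ri (2 ^ (n + b)) (d.ξ k), ri_lt (by positivity) _, rfl⟩

theorem rd_A_ne (k : ι) (i : ℕ) : (rd b d).A k i ≠ 0 ↔ d.A k i ≠ 0 := by
  constructor
  · exact fun h => left_ne_zero_of_mul h
  · intro h
    refine mul_ne_zero h ?_
    intro h0
    have := norm_e (-(rt (2 ^ (n + b)) (d.ξ k) * i))
    rw [h0, norm_zero] at this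
    exact zero_ne_one this

theorem norm_rd_A (k : ι) (i : ℕ) : ‖(rd b d).A k i‖ = ‖d.A k i‖ := by
  show ‖d.A k i * e _‖ = _
  rw [norm_mul, norm_e, mul_one]

/-- comparison of the averages over a node contained in the node of `i` of level `j` -/
theorem BB_round {M : ℕ} (hM : 0 < M) (x : ℝ) {p : ℕ → ℝ} (hp : ∀ i, 0 ≤ p i) {n j j' c i : ℕ}
    (hi : ∀ y ∈ nd n j' c, |(y : ℝ) - i| ≤ 2 ^ (n - j)) :
    ‖BB n p x j' c - e (-(rt M x * i)) * BB n p ((ri M x : ℝ) / M) j' c‖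
      ≤ 2 * Real.pi * (1 / M) * 2 ^ (n - j) * av n j' c p := by
  unfold BB avC av
  rw [mul_div_assoc', ← sub_div, norm_div, mul_sum, ← sum_sub_distrib]
  have h2 : ‖((2 : ℂ) ^ (n - j'))‖ = 2 ^ (n - j') := by rw [norm_pow]; norm_num
  rw [h2, mul_div_assoc']
  refine div_le_div_of_nonneg_right ?_ (by positivity)
  rw [mul_sum]
  refine norm_sum_le_of_le _ fun y hy => ?_
  rw [e_round hM x y]
  have h3 : (p y : ℂ) * (e (-((ri M x : ℝ) / M * y)) * e (-(rt M x * y)))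
      - e (-(rt M x * i)) * ((p y : ℂ) * e (-((ri M x : ℝ) / M * y)))
      = (p y : ℂ) * e (-((ri M x : ℝ) / M * y)) * (e (-(rt M x * y)) - e (-(rt M x * i))) := by
    ring
  rw [h3, norm_mul, norm_mul, norm_e, mul_one, Complex.norm_real, Real.norm_eq_abs,
    abs_of_nonneg (hp y)]
  rw [mul_comm (p y)]
  refine mul_le_mul_of_nonneg_right ?_ (hp y)
  refine (norm_e_sub _ _).trans ?_
  have h4 : -(rt M x * y) - -(rt M x * i) = rt M x * -((y : ℝ) - i) := by ring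
  rw [h4, abs_mul, abs_neg, abs_of_nonneg (rt_nonneg hM x)]
  have h5 : rt M x * |(y : ℝ) - i| ≤ 1 / M * 2 ^ (n - j) :=
    mul_le_mul (rt_le hM x) (hi y hy) (abs_nonneg _) (by positivity)
  calc 2 * Real.pi * (rt M x * |(y : ℝ) - i|) ≤ 2 * Real.pi * (1 / M * 2 ^ (n - j)) :=
        mul_le_mul_of_nonneg_left h5 (by positivity)
    _ = 2 * Real.pi * (1 / M) * 2 ^ (n - j) := by ring

theorem dist_nd {n j i y : ℕ} (hy : y ∈ nd n j (anc n j i)) : |(y : ℝ) - i| ≤ 2 ^ (n - j) := by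
  unfold nd anc at hy
  rw [mem_Ico] at hy
  have hp : 0 < 2 ^ (n - j) := by positivity
  have h1 : i / 2 ^ (n - j) * 2 ^ (n - j) ≤ i := Nat.div_mul_le_self _ _
  have h2 : i < (i / 2 ^ (n - j) + 1) * 2 ^ (n - j) := by
    have := Nat.lt_div_mul_add hp (a := i)
    linarith [Nat.add_one_mul (i / 2 ^ (n - j)) (2 ^ (n - j))]
  have h3 : (i / 2 ^ (n - j) + 1) * 2 ^ (n - j) = i / 2 ^ (n - j) * 2 ^ (n - j) + 2 ^ (n - j) := by
    ring
  rw [h3] at h2 hy
  have h4 : (y : ℤ) - i ≤ 2 ^ (n - j) ∧ -(2 : ℤ) ^ (n - j) ≤ (y : ℤ) - i := by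
    have e1 : ((2 ^ (n - j) : ℕ) : ℤ) = 2 ^ (n - j) := by push_cast; rfl
    rw [← e1]
    omega
  have h5 : ((y : ℝ) - i) ≤ 2 ^ (n - j) ∧ -(2 : ℝ) ^ (n - j) ≤ (y : ℝ) - i := by
    exact_mod_cast h4
  exact abs_le.mpr ⟨h5.2, h5.1⟩

theorem nd_child {n j : ℕ} (hj : j < n) (a : ℕ) {c : ℕ} (hc : c = 2 * a ∨ c = 2 * a + 1) {y : ℕ}
    (hy : y ∈ nd n (j + 1) c) : y ∈ nd n j a := by
  rw [H350.nd_split hj, mem_union]
  rcases hc with rfl | rfl
  · exact Or.inl hy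
  · exact Or.inr hy

theorem dB_round {M : ℕ} (hM : 0 < M) (x : ℝ) {p : ℕ → ℝ} (hp : ∀ i, 0 ≤ p i) {n j i : ℕ}
    (hj : j < n) :
    ‖dB n p x j (anc n j i) - e (-(rt M x * i)) * dB n p ((ri M x : ℝ) / M) j (anc n j i)‖
      ≤ 2 * Real.pi * (1 / M) * 2 ^ (n - j) * av n j (anc n j i) p := by
  set a := anc n j i with ha
  have h0 := BB_round (j := j) (i := i) hM x hp (n := n) (j' := j + 1) (c := 2 * a)
    (fun y hy => dist_nd (nd_child hj a (Or.inl rfl) hy))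
  have h1 := BB_round (j := j) (i := i) hM x hp (n := n) (j' := j + 1) (c := 2 * a + 1)
    (fun y hy => dist_nd (nd_child hj a (Or.inr rfl) hy))
  have hm := H350.av_mart hj a p
  have e1 : dB n p x j a - e (-(rt M x * i)) * dB n p ((ri M x : ℝ) / M) j a
      = ((BB n p x (j + 1) (2 * a) - e (-(rt M x * i)) * BB n p ((ri M x : ℝ) / M) (j + 1) (2 * a))
        - (BB n p x (j + 1) (2 * a + 1)
          - e (-(rt M x * i)) * BB n p ((ri M x : ℝ) / M) (j + 1) (2 * a + 1))) / 2 := by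
    unfold dB; ring
  rw [e1, norm_div]
  have h2 : ‖(2 : ℂ)‖ = 2 := by norm_num
  rw [h2, div_le_iff₀ (by norm_num)]
  refine (norm_sub_le _ _).trans ?_
  refine (add_le_add h0 h1).trans (le_of_eq ?_)
  rw [hm]
  ring

/-- **the gain of the rounded data** -/
theorem gain_rd : ‖d.gain - (rd b d).gain‖ ≤ 16 * Real.log D ^ 2 / 2 ^ b := by
  set M : ℕ := 2 ^ (n + b) with hM
  have hM0 : 0 < M := by positivity
  have hMR : (M : ℝ) = 2 ^ (n + b) := by rw [hM]; push_cast; rfl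
  -- one term
  have hterm : ∀ k : ι, ∀ j ∈ Ico (d.js k + 3) (n - 1), ∀ i ∈ range (2 ^ n),
      ‖d.A k i * sg n j i * dB n d.p (d.ξ k) j (anc n j i)
        - (rd b d).A k i * sg n j i * dB n d.p ((rd b d).ξ k) j (anc n j i)‖
      ≤ d.a k i * (2 * Real.pi * Real.log D ^ 2 / 2 ^ b * (1 / 2) ^ j) := by
    intro k j hj i _
    rw [mem_Ico] at hj
    have hjn : j < n := by omega
    have e1 : d.A k i * sg n j i * dB n d.p (d.ξ k) j (anc n j i)
        - (rd b d).A k i * sg n j i * dB n d.p ((rd b d).ξ k) j (anc n j i)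
        = d.A k i * sg n j i * (dB n d.p (d.ξ k) j (anc n j i)
          - e (-(rt M (d.ξ k) * i)) * dB n d.p ((ri M (d.ξ k) : ℝ) / M) j (anc n j i)) := by
      have : (rd b d).ξ k = (ri M (d.ξ k) : ℝ) / M := by rw [hMR]; rfl
      rw [this]
      show _ - (d.A k i * e (-(rt M (d.ξ k) * i))) * _ * _ = _
      ring
    rw [e1, norm_mul, norm_mul]
    have hs : ‖((sg n j i : ℝ) : ℂ)‖ = 1 := by
      rw [Complex.norm_real]
      unfold sg
      split_ifs <;> norm_num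
    rw [hs, mul_one]
    by_cases h0 : d.A k i = 0
    · rw [h0, norm_zero, zero_mul]
      exact mul_nonneg (d.a_nonneg k i) (by positivity)
    · refine mul_le_mul (d.A_le k i) ?_ (norm_nonneg _) (d.a_nonneg k i)
      refine (dB_round hM0 (d.ξ k) d.p_nonneg hjn).trans ?_
      have h2 : av n j (anc n j i) d.p ≤ Real.log D ^ 2 := d.alive k i h0 j hjn.le
      have h3 : 2 * Real.pi * (1 / (M : ℝ)) * 2 ^ (n - j) * av n j (anc n j i) d.p
          ≤ 2 * Real.pi * (1 / (M : ℝ)) * 2 ^ (n - j) * Real.log D ^ 2 :=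
        mul_le_mul_of_nonneg_left h2 (by positivity)
      refine h3.trans (le_of_eq ?_)
      have h4 : (2 : ℝ) ^ (n + b) = 2 ^ (n - j) * 2 ^ j * 2 ^ b := by
        rw [← pow_add, ← pow_add]; congr 1; omega
      rw [hMR, h4, one_div_pow]
      field_simp
  -- the sum
  have hgeo : ∀ s : Finset ℕ, ∑ j ∈ s, ((1 : ℝ) / 2) ^ j ≤ 2 := by
    intro s
    exact (summable_geometric_two.sum_le_tsum s (fun _ _ => by positivity)).trans
      tsum_geometric_two.le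
  have e2 : d.gain - (rd b d).gain = ∑ k, ∑ j ∈ Ico (d.js k + 3) (n - 1),
      (∑ i ∈ range (2 ^ n), (d.A k i * sg n j i * dB n d.p (d.ξ k) j (anc n j i)
        - (rd b d).A k i * sg n j i * dB n d.p ((rd b d).ξ k) j (anc n j i))) / 2 ^ n := by
    unfold HData.gain
    rw [← sum_sub_distrib]
    refine sum_congr rfl fun k _ => ?_
    rw [rd_js, ← sum_sub_distrib]
    refine sum_congr rfl fun j _ => ?_
    rw [rd_p, ← sub_div, ← sum_sub_distrib]
  rw [e2]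
  set c : ℝ := 2 * Real.pi * Real.log D ^ 2 / 2 ^ b with hc
  have hc0 : 0 ≤ c := by positivity
  have h5 : ∀ k : ι, ‖∑ j ∈ Ico (d.js k + 3) (n - 1),
      (∑ i ∈ range (2 ^ n), (d.A k i * sg n j i * dB n d.p (d.ξ k) j (anc n j i)
        - (rd b d).A k i * sg n j i * dB n d.p ((rd b d).ξ k) j (anc n j i))) / 2 ^ n‖
      ≤ (∑ i ∈ range (2 ^ n), d.a k i) / 2 ^ n * (2 * c) := by
    intro k
    have h6 : ∀ j ∈ Ico (d.js k + 3) (n - 1),
        ‖(∑ i ∈ range (2 ^ n), (d.A k i * sg n j i * dB n d.p (d.ξ k) j (anc n j i)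
        - (rd b d).A k i * sg n j i * dB n d.p ((rd b d).ξ k) j (anc n j i))) / 2 ^ n‖
        ≤ (∑ i ∈ range (2 ^ n), d.a k i) / 2 ^ n * c * (1 / 2) ^ j := by
      intro j hj
      rw [norm_div]
      have h7 : ‖((2 : ℂ) ^ n)‖ = 2 ^ n := by rw [norm_pow]; norm_num
      rw [h7]
      have h8 : (∑ i ∈ range (2 ^ n), d.a k i) / 2 ^ n * c * (1 / 2) ^ j
          = (∑ i ∈ range (2 ^ n), d.a k i * (c * (1 / 2) ^ j)) / 2 ^ n := by
        rw [← sum_mul]; ring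
      rw [h8]
      refine div_le_div_of_nonneg_right ?_ (by positivity)
      exact norm_sum_le_of_le _ fun i hi => hterm k j hj i hi
    refine (norm_sum_le_of_le _ h6).trans ?_
    rw [← mul_sum]
    have h9 : 0 ≤ (∑ i ∈ range (2 ^ n), d.a k i) / 2 ^ n * c :=
      mul_nonneg (div_nonneg (sum_nonneg fun i _ => d.a_nonneg k i) (by positivity)) hc0
    calc (∑ i ∈ range (2 ^ n), d.a k i) / 2 ^ n * c
          * ∑ j ∈ Ico (d.js k + 3) (n - 1), (1 / 2 : ℝ) ^ j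
        ≤ (∑ i ∈ range (2 ^ n), d.a k i) / 2 ^ n * c * 2 :=
          mul_le_mul_of_nonneg_left (hgeo _) h9
      _ = (∑ i ∈ range (2 ^ n), d.a k i) / 2 ^ n * (2 * c) := by ring
  refine (norm_sum_le_of_le _ fun k _ => h5 k).trans ?_
  rw [← sum_mul, ← sum_div, sum_comm]
  have h10 : (∑ i ∈ range (2 ^ n), ∑ k, d.a k i) / 2 ^ n ≤ (1 : ℝ) := by
    rw [div_le_one (by positivity)]
    refine (sum_le_sum fun i _ => d.a_sum i).trans ?_
    simp
  have h11 : (∑ i ∈ range (2 ^ n), ∑ k, d.a k i) / 2 ^ n * (2 * c) ≤ 1 * (2 * c) :=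
    mul_le_mul_of_nonneg_right h10 (by positivity)
  refine h11.trans ?_
  have hpi : Real.pi ≤ 4 := Real.pi_le_four
  rw [hc, one_mul]
  have h12 : 2 * (2 * Real.pi * Real.log D ^ 2 / 2 ^ b)
      = (4 * Real.pi) * (Real.log D ^ 2 / 2 ^ b) := by ring
  have h13 : 16 * Real.log D ^ 2 / 2 ^ b = 16 * (Real.log D ^ 2 / 2 ^ b) := by ring
  rw [h12, h13]
  refine mul_le_mul_of_nonneg_right (by linarith) (by positivity)

end

/-- `(log D)² ≤ 4 D` for `D ≥ 1` -/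
theorem log_sq_le {D : ℝ} (hD : 1 ≤ D) : Real.log D ^ 2 ≤ 4 * D := by
  have h0 : 0 ≤ Real.log D := Real.log_nonneg hD
  have h1 : Real.log D = 2 * Real.log (Real.sqrt D) := by
    rw [Real.log_sqrt (by linarith)]; ring
  have h2 : Real.log (Real.sqrt D) ≤ Real.sqrt D := by
    have := Real.log_le_sub_one_of_pos (Real.sqrt_pos.2 (by linarith : (0 : ℝ) < D))
    linarith
  have h3 : 0 ≤ Real.log (Real.sqrt D) := by linarith
  have h4 : Real.sqrt D ^ 2 = D := Real.sq_sqrt (by linarith)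
  rw [h1]
  nlinarith [Real.sqrt_nonneg D]

/-- `HEAVY` with letters which are multiples of `2^{-(n + b D)}` -/
theorem heavy_of_round (b : ℝ → ℕ)
    (H : ∀ C0 : ℝ, 0 ≤ C0 → ∃ C : ℝ, ∀ (D : ℝ) (n : ℕ) (ι : Type) [Fintype ι]
      (d : HData C0 D n ι), 2 ≤ D →
      (∀ k, ∃ r : ℕ, r < 2 ^ (n + b D) ∧ d.ξ k = (r : ℝ) / 2 ^ (n + b D)) → ‖d.gain‖ ≤ C * D) :
    HEAVY := by
  intro C0 hC0
  obtain ⟨C, hC⟩ := H C0 hC0
  refine ⟨C + 64, fun D n ι _ d hD => ?_⟩
  have h1 := hC D n ι (rd (b D) d) hD (fun k => rd_xi (b D) d k)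
  have h2 := gain_rd (b D) d
  have h3 : 16 * Real.log D ^ 2 / 2 ^ b D ≤ 64 * D := by
    have h4 : 16 * Real.log D ^ 2 / 2 ^ b D ≤ 16 * Real.log D ^ 2 :=
      div_le_self (by positivity) (one_le_pow₀ (by norm_num))
    have := log_sq_le (by linarith : (1 : ℝ) ≤ D)
    linarith
  have h5 : ‖d.gain‖ ≤ ‖d.gain - (rd (b D) d).gain‖ + ‖(rd (b D) d).gain‖ := by
    have := norm_add_le (d.gain - (rd (b D) d).gain) (rd (b D) d).gain
    rwa [sub_add_cancel] at this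
  linarith

/-- the same together with the floor of `H960` -/
theorem heavy_of_round_floor (b : ℝ → ℕ)
    (H : ∀ C0 C1 : ℝ, 0 ≤ C0 → 0 ≤ C1 → ∃ C : ℝ, ∀ (D : ℝ) (n : ℕ) (ι : Type) [Fintype ι]
      (d : HData C0 D n ι), 2 ≤ D →
      (∀ k, ∃ r : ℕ, r < 2 ^ (n + b D) ∧ d.ξ k = (r : ℝ) / 2 ^ (n + b D)) →
      (∀ k i, d.A k i ≠ 0 → ∀ j, d.js k ≤ j → j ≤ n →
        Real.exp (-(C1 * D)) ≤ av n j (anc n j i) (d.a k)) → ‖d.gain‖ ≤ C * D) :
    HEAVY := by
  refine H960.heavy_of_floor fun C0 C1 hC0 hC1 => ?_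
  obtain ⟨C, hC⟩ := H C0 C1 hC0 hC1
  refine ⟨C + 64, fun D n ι _ d hD hf => ?_⟩
  have h1 := hC D n ι (rd (b D) d) hD (fun k => rd_xi (b D) d k)
    (fun k i h => hf k i ((rd_A_ne (b D) d k i).1 h))
  have h2 := gain_rd (b D) d
  have h3 : 16 * Real.log D ^ 2 / 2 ^ b D ≤ 64 * D := by
    have h4 : 16 * Real.log D ^ 2 / 2 ^ b D ≤ 16 * Real.log D ^ 2 :=
      div_le_self (by positivity) (one_le_pow₀ (by norm_num))
    have := log_sq_le (by linarith : (1 : ℝ) ≤ D)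
    linarith
  have h5 : ‖d.gain‖ ≤ ‖d.gain - (rd (b D) d).gain‖ + ‖(rd (b D) d).gain‖ := by
    have := norm_add_le (d.gain - (rd (b D) d).gain) (rd (b D) d).gain
    rwa [sub_add_cancel] at this
  linarith

end Vale.Agent.P091.T.H880
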